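import Mathlib

namespace Vale.Agent.P150

open Finset

variable {n : ℕ}

/-- The value `±1` of a spin. -/
def spin (b : Bool) : ℝ := if b then 1 else -1

/-- Unnormalised Gibbs weight `exp (∑_{i<j} J i j x_i x_j)`. -/
noncomputable def weight (J : Fin n → Fin n → ℝ) (x : Fin n → Bool) : ℝ :=
  Real.exp (∑ i, ∑ j, if i < j then J i j * spin (x i) * spin (x j) else 0)

/-- The Gibbs measure. -/
noncomputable def gibbs (J : Fin n → Fin n → ℝ) (x : Fin n → Bool) : ℝ :=
  weight J x / ∑ y, weight J y

/-- The configuration with spin `i` flipped. -/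
def flip (i : Fin n) (x : Fin n → Bool) : Fin n → Bool := Function.update x i (!x i)

/-- Heat-bath update at site `i`: conditional expectation given the other spins. -/
noncomputable def condExp (J : Fin n → Fin n → ℝ) (i : Fin n) (f : (Fin n → Bool) → ℝ)
    (x : Fin n → Bool) : ℝ :=
  (weight J x * f x + weight J (flip i x) * f (flip i x)) / (weight J x + weight J (flip i x))

/-- The generator `∑_i (Q_i - I)` of continuous-time Glauber dynamics. -/
noncomputable def generator (J : Fin n → Fin n → ℝ) (f : (Fin n → Bool) → ℝ)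
    (x : Fin n → Bool) : ℝ :=
  ∑ i, (condExp J i f x - f x)

/-- The Dirichlet form `-⟨f, L f⟩` in `L^2` of the Gibbs measure. -/
noncomputable def dirichlet (J : Fin n → Fin n → ℝ) (f : (Fin n → Bool) → ℝ) : ℝ :=
  -∑ x, gibbs J x * (f x * generator J f x)

/-- Variance under the Gibbs measure. -/
noncomputable def variance (J : Fin n → Fin n → ℝ) (f : (Fin n → Bool) → ℝ) : ℝ :=
  ∑ x, gibbs J x * f x ^ 2 - (∑ x, gibbs J x * f x) ^ 2

/-- The spectral gap of `-L`, as the infimum of the Rayleigh quotient over nonconstant `f`. -/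
noncomputable def gap (J : Fin n → Fin n → ℝ) : ℝ :=
  sInf {r | ∃ f : (Fin n → Bool) → ℝ, 0 < variance J f ∧ r = dirichlet J f / variance J f}

/-- The overlap `R(x,y) = n⁻¹ ∑_i x_i y_i` of two configurations. -/
noncomputable def overlap (x y : Fin n → Bool) : ℝ := (∑ i, spin (x i) * spin (y i)) / n

/-- The second moment of the overlap of two independent replicas. -/
noncomputable def overlapSq (J : Fin n → Fin n → ℝ) : ℝ :=
  ∑ x, ∑ y, gibbs J x * gibbs J y * overlap x y ^ 2

end Vale.Agent.P150
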