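import Mathlib
import Vale.Agent.P150.Defs

namespace Vale.Agent.P150

open Finset

variable {n : ℕ}

theorem spin_sq (b : Bool) : spin b * spin b = 1 := by
  cases b <;> simp [spin]

theorem spin_not (b : Bool) : spin (!b) = -spin b := by
  cases b <;> simp [spin]

theorem weight_pos (J : Fin n → Fin n → ℝ) (x : Fin n → Bool) : 0 < weight J x :=
  Real.exp_pos _

theorem flip_flip (i : Fin n) (x : Fin n → Bool) : flip i (flip i x) = x := by
  funext j
  by_cases h : j = i
  · subst h; simp [flip]
  · simp [flip, h]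

theorem sum_flip (i : Fin n) (g : (Fin n → Bool) → ℝ) : ∑ x, g (flip i x) = ∑ x, g x :=
  Equiv.sum_comp (Function.Involutive.toPerm (flip i) (flip_flip i)) g

theorem partition_pos (J : Fin n → Fin n → ℝ) : 0 < ∑ y, weight J y :=
  Finset.sum_pos (fun y _ => weight_pos J y) Finset.univ_nonempty

/-- the symmetric heat-bath conductance -/
noncomputable def cond (J : Fin n → Fin n → ℝ) (i : Fin n) (x : Fin n → Bool) : ℝ :=
  weight J x * weight J (flip i x) / (weight J x + weight J (flip i x))

theorem cond_flip (J : Fin n → Fin n → ℝ) (i : Fin n) (x : Fin n → Bool) :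
    cond J i (flip i x) = cond J i x := by
  unfold cond
  rw [flip_flip, mul_comm, add_comm]

theorem cond_nonneg (J : Fin n → Fin n → ℝ) (i : Fin n) (x : Fin n → Bool) : 0 ≤ cond J i x := by
  have h1 := weight_pos J x
  have h2 := weight_pos J (flip i x)
  unfold cond
  positivity

theorem cond_le (J : Fin n → Fin n → ℝ) (i : Fin n) (x : Fin n → Bool) :
    cond J i x ≤ (weight J x + weight J (flip i x)) / 4 := by
  have h1 := weight_pos J x
  have h2 := weight_pos J (flip i x)
  unfold cond
  rw [div_le_div_iff₀ (by positivity) (by norm_num)]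
  nlinarith [sq_nonneg (weight J x - weight J (flip i x))]

theorem weight_mul_sub (J : Fin n → Fin n → ℝ) (i : Fin n) (f : (Fin n → Bool) → ℝ)
    (x : Fin n → Bool) :
    weight J x * (f x - condExp J i f x) = cond J i x * (f x - f (flip i x)) := by
  have h1 := weight_pos J x
  have h2 := weight_pos J (flip i x)
  unfold cond condExp
  field_simp
  ring

theorem site_form (J : Fin n → Fin n → ℝ) (i : Fin n) (f : (Fin n → Bool) → ℝ) :
    ∑ x, weight J x * (f x * (f x - condExp J i f x)) =
      (1 / 2) * ∑ x, cond J i x * (f x - f (flip i x)) ^ 2 := by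
  have h1 : ∑ x, weight J x * (f x * (f x - condExp J i f x)) =
      ∑ x, cond J i x * (f x * (f x - f (flip i x))) := by
    apply Finset.sum_congr rfl
    intro x _
    calc weight J x * (f x * (f x - condExp J i f x))
        = f x * (weight J x * (f x - condExp J i f x)) := by ring
      _ = f x * (cond J i x * (f x - f (flip i x))) := by rw [weight_mul_sub]
      _ = _ := by ring
  have h2 : ∑ x, cond J i x * (f x * (f x - f (flip i x))) =
      ∑ x, cond J i x * (f (flip i x) * (f (flip i x) - f x)) := by
    rw [← sum_flip i (fun x => cond J i x * (f x * (f x - f (flip i x))))]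
    apply Finset.sum_congr rfl
    intro x _
    rw [cond_flip, flip_flip]
  have h3 : ∑ x, cond J i x * (f x - f (flip i x)) ^ 2 =
      ∑ x, cond J i x * (f x * (f x - f (flip i x))) +
        ∑ x, cond J i x * (f (flip i x) * (f (flip i x) - f x)) := by
    rw [← Finset.sum_add_distrib]
    apply Finset.sum_congr rfl
    intro x _
    ring
  rw [h1, h3, ← h2]
  ring

theorem dirichlet_eq (J : Fin n → Fin n → ℝ) (f : (Fin n → Bool) → ℝ) :
    dirichlet J f = (∑ i, (1 / 2) * ∑ x, cond J i x * (f x - f (flip i x)) ^ 2) /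
      ∑ y, weight J y := by
  have hZ := partition_pos J
  have h1 : dirichlet J f = (∑ i, ∑ x, weight J x * (f x * (f x - condExp J i f x))) /
      ∑ y, weight J y := by
    unfold dirichlet generator gibbs
    rw [Finset.sum_comm, Finset.sum_div, ← Finset.sum_neg_distrib]
    apply Finset.sum_congr rfl
    intro x _
    rw [← Finset.mul_sum, ← Finset.mul_sum]
    have : ∑ i, (f x - condExp J i f x) = -∑ i, (condExp J i f x - f x) := by
      rw [← Finset.sum_neg_distrib]
      apply Finset.sum_congr rfl
      intro i _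
      ring
    rw [this]
    ring
  rw [h1]
  congr 1
  apply Finset.sum_congr rfl
  intro i _
  exact site_form J i f

theorem dirichlet_nonneg (J : Fin n → Fin n → ℝ) (f : (Fin n → Bool) → ℝ) :
    0 ≤ dirichlet J f := by
  rw [dirichlet_eq]
  apply div_nonneg _ (partition_pos J).le
  apply Finset.sum_nonneg
  intro i _
  apply mul_nonneg (by norm_num)
  apply Finset.sum_nonneg
  intro x _
  exact mul_nonneg (cond_nonneg J i x) (sq_nonneg _)

theorem gap_mul_variance_le (J : Fin n → Fin n → ℝ) (f : (Fin n → Bool) → ℝ)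
    (hv : 0 ≤ variance J f) : gap J * variance J f ≤ dirichlet J f := by
  rcases hv.lt_or_eq with hpos | hzero
  · have hle : gap J ≤ dirichlet J f / variance J f := by
      apply csInf_le
      · refine ⟨0, ?_⟩
        rintro r ⟨g, hg, rfl⟩
        exact div_nonneg (dirichlet_nonneg J g) hg.le
      · exact ⟨f, hpos, rfl⟩
    rwa [le_div_iff₀ hpos] at hle
  · rw [← hzero, mul_zero]
    exact dirichlet_nonneg J f

/-- the linear statistic `∑_i u_i x_i` -/
noncomputable def lin (u : Fin n → ℝ) (x : Fin n → Bool) : ℝ := ∑ j, u j * spin (x j)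

theorem lin_sub_flip (u : Fin n → ℝ) (i : Fin n) (x : Fin n → Bool) :
    lin u x - lin u (flip i x) = 2 * (u i * spin (x i)) := by
  unfold lin
  rw [← Finset.sum_sub_distrib, Finset.sum_eq_single i]
  · simp [flip, spin_not]; ring
  · intro j _ hj
    simp [flip, hj]
  · intro h; exact absurd (Finset.mem_univ i) h

theorem dirichlet_lin_le (J : Fin n → Fin n → ℝ) (u : Fin n → ℝ) :
    dirichlet J (lin u) ≤ ∑ i, u i ^ 2 := by
  have hZ := partition_pos J
  rw [dirichlet_eq, div_le_iff₀ hZ, Finset.sum_mul]
  apply Finset.sum_le_sum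
  intro i _
  have h1 : ∀ x, cond J i x * (lin u x - lin u (flip i x)) ^ 2 ≤
      u i ^ 2 * (weight J x + weight J (flip i x)) := by
    intro x
    rw [lin_sub_flip]
    have h2 : (2 * (u i * spin (x i))) ^ 2 = 4 * u i ^ 2 := by
      have := spin_sq (x i)
      calc (2 * (u i * spin (x i))) ^ 2 = 4 * u i ^ 2 * (spin (x i) * spin (x i)) := by ring
        _ = 4 * u i ^ 2 := by rw [this]; ring
    rw [h2]
    have h3 := cond_le J i x
    have h4 : 0 ≤ 4 * u i ^ 2 := by positivity
    calc cond J i x * (4 * u i ^ 2) ≤ (weight J x + weight J (flip i x)) / 4 * (4 * u i ^ 2) :=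
          mul_le_mul_of_nonneg_right h3 h4
      _ = _ := by ring
  calc (1 / 2) * ∑ x, cond J i x * (lin u x - lin u (flip i x)) ^ 2
      ≤ (1 / 2) * ∑ x, u i ^ 2 * (weight J x + weight J (flip i x)) := by
        apply mul_le_mul_of_nonneg_left _ (by norm_num)
        exact Finset.sum_le_sum (fun x _ => h1 x)
    _ = u i ^ 2 * ∑ y, weight J y := by
        rw [← Finset.mul_sum, Finset.sum_add_distrib, sum_flip i (fun x => weight J x)]
        ring

/-- global spin flip -/
def neg (x : Fin n → Bool) : Fin n → Bool := fun i => !x i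

theorem neg_neg' (x : Fin n → Bool) : neg (neg x) = x := by
  funext i; simp [neg]

theorem sum_neg' (g : (Fin n → Bool) → ℝ) : ∑ x, g (neg x) = ∑ x, g x :=
  Equiv.sum_comp (Function.Involutive.toPerm neg neg_neg') g

theorem weight_neg (J : Fin n → Fin n → ℝ) (x : Fin n → Bool) : weight J (neg x) = weight J x := by
  unfold weight
  congr 1
  apply Finset.sum_congr rfl
  intro i _
  apply Finset.sum_congr rfl
  intro j _
  simp only [neg, spin_not]
  split_ifs <;> ring

theorem lin_neg (u : Fin n → ℝ) (x : Fin n → Bool) : lin u (neg x) = -lin u x := by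
  unfold lin
  rw [← Finset.sum_neg_distrib]
  apply Finset.sum_congr rfl
  intro j _
  simp only [neg, spin_not]
  ring

theorem mean_lin (J : Fin n → Fin n → ℝ) (u : Fin n → ℝ) : ∑ x, gibbs J x * lin u x = 0 := by
  have h := sum_neg' (fun x => gibbs J x * lin u x)
  have h2 : ∑ x, gibbs J (neg x) * lin u (neg x) = -∑ x, gibbs J x * lin u x := by
    rw [← Finset.sum_neg_distrib]
    apply Finset.sum_congr rfl
    intro x _
    unfold gibbs
    rw [weight_neg, lin_neg]
    ring
  rw [h2] at h
  linarith

theorem gibbs_nonneg (J : Fin n → Fin n → ℝ) (x : Fin n → Bool) : 0 ≤ gibbs J x :=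
  div_nonneg (weight_pos J x).le (partition_pos J).le

theorem sum_gibbs (J : Fin n → Fin n → ℝ) : ∑ x, gibbs J x = 1 := by
  unfold gibbs
  rw [← Finset.sum_div]
  exact div_self (partition_pos J).ne'

theorem variance_lin (J : Fin n → Fin n → ℝ) (u : Fin n → ℝ) :
    variance J (lin u) = ∑ x, gibbs J x * lin u x ^ 2 := by
  unfold variance
  rw [mean_lin]
  ring

theorem gap_mul_variance_lin_le (J : Fin n → Fin n → ℝ) (u : Fin n → ℝ) :
    gap J * variance J (lin u) ≤ ∑ i, u i ^ 2 := by
  refine (gap_mul_variance_le J (lin u) ?_).trans (dirichlet_lin_le J u)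
  rw [variance_lin]
  exact Finset.sum_nonneg (fun x _ => mul_nonneg (gibbs_nonneg J x) (sq_nonneg _))

theorem gap_mul_overlapSq_le (J : Fin n → Fin n → ℝ) : gap J * (n * overlapSq J) ≤ 1 := by
  rcases Nat.eq_zero_or_pos n with h0 | hpos
  · subst h0; simp
  have hn : (0 : ℝ) < n := by exact_mod_cast hpos
  have h1 : ∀ y : Fin n → Bool, gap J * ∑ x, gibbs J x * overlap x y ^ 2 ≤ 1 / n := by
    intro y
    have h2 := gap_mul_variance_lin_le J (fun i => spin (y i))
    rw [variance_lin] at h2
    have h3 : ∑ i, spin (y i) ^ 2 = (n : ℝ) := by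
      have : ∀ i, spin (y i) ^ 2 = 1 := fun i => by rw [sq]; exact spin_sq _
      simp [this]
    rw [h3] at h2
    have h4 : ∑ x, gibbs J x * overlap x y ^ 2 =
        (∑ x, gibbs J x * lin (fun i => spin (y i)) x ^ 2) / (n : ℝ) ^ 2 := by
      rw [Finset.sum_div]
      apply Finset.sum_congr rfl
      intro x _
      unfold overlap lin
      have : ∑ i, spin (x i) * spin (y i) = ∑ j, spin (y j) * spin (x j) :=
        Finset.sum_congr rfl (fun i _ => mul_comm _ _)
      rw [this, div_pow]
      ring
    rw [h4, ← mul_div_assoc, div_le_div_iff₀ (by positivity) hn]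
    nlinarith
  have h5 : overlapSq J = ∑ y, gibbs J y * ∑ x, gibbs J x * overlap x y ^ 2 := by
    unfold overlapSq
    rw [Finset.sum_comm]
    apply Finset.sum_congr rfl
    intro y _
    rw [Finset.mul_sum]
    apply Finset.sum_congr rfl
    intro x _
    ring
  have h6 : gap J * overlapSq J ≤ 1 / n := by
    rw [h5, Finset.mul_sum]
    calc ∑ y, gap J * (gibbs J y * ∑ x, gibbs J x * overlap x y ^ 2)
        = ∑ y, gibbs J y * (gap J * ∑ x, gibbs J x * overlap x y ^ 2) := by
          apply Finset.sum_congr rfl; intro y _; ring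
      _ ≤ ∑ y, gibbs J y * (1 / n) := by
          apply Finset.sum_le_sum
          intro y _
          exact mul_le_mul_of_nonneg_left (h1 y) (gibbs_nonneg J y)
      _ = 1 / n := by rw [← Finset.sum_mul, sum_gibbs, one_mul]
  calc gap J * (n * overlapSq J) = n * (gap J * overlapSq J) := by ring
    _ ≤ n * (1 / n) := mul_le_mul_of_nonneg_left h6 hn.le
    _ = 1 := by field_simp

end Vale.Agent.P150
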